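import Vale.Agent.Lib.Helper8.LogBM

/-!
# P227 (logarithmic Brunn–Minkowski conjecture): products and block dilations

`ℝ^ι` is `ι → ℝ` with the dot product and Lebesgue measure.  `LogBM lam K L` is the inequality
`|K|^(1-lam) |L|^lam ≤ |(1-lam)K +₀ lam L|`, where the logarithmic combination `logSum lam K L` is
the Wulff body of `h_K^(1-lam) h_L^lam`.  For `0 < lam < 1` and nonempty bounded origin-symmetric
sets:

* dilates: `(K, sK)` satisfies the inequality for every `s > 0`;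
* block dilations of products: `(K₁ × K₂, s₁K₁ × s₂K₂)` satisfies it for all `s₁, s₂ > 0`,
  whatever the dimensions of the two blocks;
* closure: if `(K₁, L₁)` and `(K₂, L₂)` satisfy it then so does `(K₁ × K₂, L₁ × L₂)`, and the
  product is again nonempty, bounded and origin-symmetric (so the statements iterate).
-/

namespace Vale.Agent.Results.P227.BlockDilations

open Vale.Agent.Lib.Helper8.LogBM
open scoped Pointwise

theorem result {ι κ : Type*} [Fintype ι] [Fintype κ] (lam : ℝ) (h0 : 0 < lam) (h1 : lam < 1) :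
    (∀ (K : Set (ι → ℝ)) (s : ℝ),
      K.Nonempty → Bornology.IsBounded K → (∀ y ∈ K, -y ∈ K) → 0 < s →
      LogBM lam K (s • K)) ∧
    (∀ (K₁ : Set (ι → ℝ)) (K₂ : Set (κ → ℝ)) (s₁ s₂ : ℝ),
      K₁.Nonempty → Bornology.IsBounded K₁ → (∀ y ∈ K₁, -y ∈ K₁) →
      K₂.Nonempty → Bornology.IsBounded K₂ → (∀ y ∈ K₂, -y ∈ K₂) →
      0 < s₁ → 0 < s₂ →
      LogBM lam (prodSet K₁ K₂) (prodSet (s₁ • K₁) (s₂ • K₂))) ∧
    (∀ (K₁ L₁ : Set (ι → ℝ)) (K₂ L₂ : Set (κ → ℝ)),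
      K₁.Nonempty → Bornology.IsBounded K₁ → (∀ y ∈ K₁, -y ∈ K₁) →
      L₁.Nonempty → Bornology.IsBounded L₁ → (∀ y ∈ L₁, -y ∈ L₁) →
      K₂.Nonempty → Bornology.IsBounded K₂ → (∀ y ∈ K₂, -y ∈ K₂) →
      L₂.Nonempty → Bornology.IsBounded L₂ → (∀ y ∈ L₂, -y ∈ L₂) →
      LogBM lam K₁ L₁ → LogBM lam K₂ L₂ →
      LogBM lam (prodSet K₁ K₂) (prodSet L₁ L₂) ∧
        (prodSet K₁ K₂).Nonempty ∧ Bornology.IsBounded (prodSet K₁ K₂) ∧
        (∀ z ∈ prodSet K₁ K₂, -z ∈ prodSet K₁ K₂)) := by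
  refine ⟨fun K s a1 a2 a3 hs => logBM_dilate h0 h1 a1 a2 a3 hs,
    fun K₁ K₂ s₁ s₂ a1 a2 a3 c1 c2 c3 hs₁ hs₂ =>
      logBM_prod h0 h1 a1 a2 a3 (smul_nonempty' a1 s₁) (smul_bounded' a2 s₁) (smul_symm' a3 s₁)
        c1 c2 c3 (smul_nonempty' c1 s₂) (smul_bounded' c2 s₂) (smul_symm' c3 s₂)
        (logBM_dilate h0 h1 a1 a2 a3 hs₁) (logBM_dilate h0 h1 c1 c2 c3 hs₂),
    fun K₁ L₁ K₂ L₂ a1 a2 a3 b1 b2 b3 c1 c2 c3 d1 d2 d3 H₁ H₂ =>
      ⟨logBM_prod h0 h1 a1 a2 a3 b1 b2 b3 c1 c2 c3 d1 d2 d3 H₁ H₂, prodSet_nonempty a1 c1,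
        prodSet_bounded a2 c2, prodSet_symm a3 c3⟩⟩

end Vale.Agent.Results.P227.BlockDilations
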