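import Vale.Agent.Lib.Helper8.LogBM

/-!
# P227 (logarithmic Brunn–Minkowski conjecture): closure under Cartesian products

`ℝ^ι` is `ι → ℝ` with the dot product and Lebesgue measure.  `LogBM lam K L` is the inequality
`|K|^(1-lam) |L|^lam ≤ |(1-lam)K +₀ lam L|`, where the logarithmic combination `logSum lam K L` is
the Wulff body of `h_K^(1-lam) h_L^lam`.

* If `(K₁, L₁)` in `ℝ^ι` and `(K₂, L₂)` in `ℝ^κ` satisfy the inequality (all four sets nonempty,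
  bounded and origin-symmetric), then so does `(K₁ × K₂, L₁ × L₂)` in `ℝ^(ι ⊕ κ)`, and the product
  is again nonempty, bounded and origin-symmetric.
* Segments `[-s, s]`, `[-t, t]` in `ℝ^1` satisfy it.
* Hence cylinders `(K × [-s, s], L × [-t, t])` over a pair that satisfies it satisfy it.
-/

namespace Vale.Agent.Results.P227.ProductClosure

open Vale.Agent.Lib.Helper8.LogBM

theorem result {ι κ : Type*} [Fintype ι] [Fintype κ] (lam : ℝ) (h0 : 0 < lam) (h1 : lam < 1) :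
    (∀ (K₁ L₁ : Set (ι → ℝ)) (K₂ L₂ : Set (κ → ℝ)),
      K₁.Nonempty → Bornology.IsBounded K₁ → (∀ y ∈ K₁, -y ∈ K₁) →
      L₁.Nonempty → Bornology.IsBounded L₁ → (∀ y ∈ L₁, -y ∈ L₁) →
      K₂.Nonempty → Bornology.IsBounded K₂ → (∀ y ∈ K₂, -y ∈ K₂) →
      L₂.Nonempty → Bornology.IsBounded L₂ → (∀ y ∈ L₂, -y ∈ L₂) →
      LogBM lam K₁ L₁ → LogBM lam K₂ L₂ →
      LogBM lam (prodSet K₁ K₂) (prodSet L₁ L₂) ∧
        (prodSet K₁ K₂).Nonempty ∧ Bornology.IsBounded (prodSet K₁ K₂) ∧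
        (∀ z ∈ prodSet K₁ K₂, -z ∈ prodSet K₁ K₂)) ∧
    (∀ s t : ℝ, 0 < s → 0 < t → LogBM lam (seg s) (seg t)) ∧
    (∀ (K L : Set (ι → ℝ)),
      K.Nonempty → Bornology.IsBounded K → (∀ y ∈ K, -y ∈ K) →
      L.Nonempty → Bornology.IsBounded L → (∀ y ∈ L, -y ∈ L) →
      LogBM lam K L →
      ∀ s t : ℝ, 0 < s → 0 < t → LogBM lam (prodSet K (seg s)) (prodSet L (seg t))) := by
  refine ⟨fun K₁ L₁ K₂ L₂ a1 a2 a3 b1 b2 b3 c1 c2 c3 d1 d2 d3 H₁ H₂ =>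
      ⟨logBM_prod h0 h1 a1 a2 a3 b1 b2 b3 c1 c2 c3 d1 d2 d3 H₁ H₂, prodSet_nonempty a1 c1,
        prodSet_bounded a2 c2, prodSet_symm a3 c3⟩,
    fun s t hs ht => logBM_seg h0 h1 hs ht,
    fun K L a1 a2 a3 b1 b2 b3 H s t hs ht =>
      logBM_prod h0 h1 a1 a2 a3 b1 b2 b3 (seg_nonempty hs.le) (seg_bounded s) (seg_symm s)
        (seg_nonempty ht.le) (seg_bounded t) (seg_symm t) H (logBM_seg h0 h1 hs ht)⟩

end Vale.Agent.Results.P227.ProductClosure
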