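import Vale.Agent.Lib.Helper8.LogBM

/-!
# P227 (logarithmic Brunn–Minkowski conjecture): exact behaviour on products and a tensor-power
self-improvement

`ℝ^ι` is `ι → ℝ` with the dot product and Lebesgue measure; `SymBody K` says that `K` is an
origin-symmetric convex body; `logSum lam K L` is the logarithmic combination `(1-lam)K +₀ lam L`
(the Wulff body of `h_K^(1-lam) h_L^lam`) and `LogBM lam K L` is the inequality
`|K|^(1-lam) |L|^lam ≤ |(1-lam)K +₀ lam L|`.  For `0 < lam < 1`:

1. the logarithmic combination of two products is the product of the logarithmic combinations;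
2. cylinders `K × [-s, s]`, `L × [-t, t]` are again origin-symmetric convex bodies and satisfy
   the inequality if and only if `K`, `L` do;
3. hence the inequality in `ℝ^(n+1)` implies the inequality in `ℝ^n`;
4. if the inequality holds up to some constant factor `C` for all pairs of origin-symmetric convex
   bodies in all dimensions, then it holds with constant one in all dimensions.
-/

namespace Vale.Agent.Results.P227.TensorPower

open Vale.Agent.Lib.Helper8.LogBM MeasureTheory

theorem result (lam : ℝ) (h0 : 0 < lam) (h1 : lam < 1) :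
    (∀ (ι κ : Type) [Fintype ι] [Fintype κ] (K₁ L₁ : Set (ι → ℝ)) (K₂ L₂ : Set (κ → ℝ)),
      SymBody K₁ → SymBody L₁ → SymBody K₂ → SymBody L₂ →
      logSum lam (prodSet K₁ K₂) (prodSet L₁ L₂) =
        prodSet (logSum lam K₁ L₁) (logSum lam K₂ L₂)) ∧
    (∀ (ι : Type) [Fintype ι] (K L : Set (ι → ℝ)), SymBody K → SymBody L →
      ∀ s t : ℝ, 0 < s → 0 < t →
        SymBody (prodSet K (seg s)) ∧ SymBody (prodSet L (seg t)) ∧
        (LogBM lam (prodSet K (seg s)) (prodSet L (seg t)) ↔ LogBM lam K L)) ∧
    (∀ (ι : Type) [Fintype ι],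
      (∀ K' L' : Set (ι ⊕ Unit → ℝ), SymBody K' → SymBody L' → LogBM lam K' L') →
      ∀ K L : Set (ι → ℝ), SymBody K → SymBody L → LogBM lam K L) ∧
    (∀ C : ℝ,
      (∀ (ι : Type) [Fintype ι] (K L : Set (ι → ℝ)), SymBody K → SymBody L →
        volume K ^ (1 - lam) * volume L ^ lam ≤ ENNReal.ofReal C * volume (logSum lam K L)) →
      ∀ (ι : Type) [Fintype ι] (K L : Set (ι → ℝ)), SymBody K → SymBody L → LogBM lam K L) := by
  refine ⟨fun ι κ _ _ K₁ L₁ K₂ L₂ a b c d =>
      logSum_prodSet h0 h1 a.nonempty a.bounded a.symm b.nonempty b.bounded b.symm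
        c.nonempty c.bounded c.symm d.nonempty d.bounded d.symm,
    fun ι _ K L a b s t hs ht =>
      ⟨symBody_prod a (symBody_seg hs), symBody_prod b (symBody_seg ht),
        logBM_cylinder_iff h0 h1 a.nonempty a.bounded a.symm b.nonempty b.bounded b.symm hs ht⟩,
    fun ι _ H K L a b =>
      (logBM_cylinder_iff h0 h1 a.nonempty a.bounded a.symm b.nonempty b.bounded b.symm
        one_pos one_pos).mp
        (H _ _ (symBody_prod a (symBody_seg one_pos)) (symBody_prod b (symBody_seg one_pos))),
    fun C hweak => logBM_of_weak h0 h1 C hweak⟩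

end Vale.Agent.Results.P227.TensorPower
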